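import Vale.Agent.P100.Main

namespace Vale.Agent.Results.P100.NecessaryRange

open Vale.Agent.P100
open Laplacian

/-- **Henon-Lane-Emden system: where positive entire solutions can live** (all notions are
Mathlib's).  Let `n ≥ 2` and let `p, q, A, B` be arbitrary reals.  If `u, v` are continuous on
`ℝ^n`, of class `C^2` on `ℝ^n \ {0}`, positive everywhere, and satisfy
`-Δ u = |x|^A v^p`, `-Δ v = |x|^B u^q` at every `x ≠ 0`, then `n ≥ 3`, `A > -2` and `B > -2`. -/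
theorem result (n : ℕ) (hn : 2 ≤ n) (p q A B : ℝ) (u v : EuclideanSpace ℝ (Fin n) → ℝ)
    (hcu : Continuous u) (hcv : Continuous v)
    (hsu : ContDiffOn ℝ 2 u {0}ᶜ) (hsv : ContDiffOn ℝ 2 v {0}ᶜ)
    (hpu : ∀ x, 0 < u x) (hpv : ∀ x, 0 < v x)
    (hequ : ∀ x, x ≠ 0 → -(Δ u x) = ‖x‖ ^ A * (v x) ^ p)
    (heqv : ∀ x, x ≠ 0 → -(Δ v x) = ‖x‖ ^ B * (u x) ^ q) :
    3 ≤ n ∧ -2 < A ∧ -2 < B := by
  have hs : IsPositiveEntireSolution n p q A B u v := ⟨hcu, hcv, hsu, hsv, hpu, hpv, hequ, heqv⟩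
  have hn3 : 3 ≤ n := by
    by_contra h3
    have h2 : n = 2 := by omega
    subst h2
    exact no_solution_plane hs
  refine ⟨hn3, ?_, ?_⟩
  · by_contra hA
    exact no_solution_singular hn3 (not_lt.mp hA) hs
  · by_contra hB
    exact no_solution_singular hn3 (not_lt.mp hB) hs.symm

end Vale.Agent.Results.P100.NecessaryRange
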