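import Vale.Agent.P100.Main

namespace Vale.Agent.Results.P100.PlaneAndSingularWeights

open Vale.Agent.P100

/-- **Henon-Lane-Emden system: the plane and strongly singular weights.**
For every dimension `n ≥ 2` and all real parameters `p, q, A, B`, the system
`-Δ u = |x|^A v^p`, `-Δ v = |x|^B u^q` on `ℝ^n \ {0}` has no positive entire solution as soon as
`n = 2`, or `A ≤ -2`, or `B ≤ -2`. -/
theorem result (n : ℕ) (hn : 2 ≤ n) (p q A B : ℝ) (h : n = 2 ∨ A ≤ -2 ∨ B ≤ -2) :
    ¬ ∃ u v : EuclideanSpace ℝ (Fin n) → ℝ, IsPositiveEntireSolution n p q A B u v := by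
  rintro ⟨u, v, hs⟩
  by_cases h2 : n = 2
  · subst h2
    exact no_solution_plane hs
  · have hn3 : 3 ≤ n := by omega
    rcases h with h | h | h
    · exact h2 h
    · exact no_solution_singular hn3 h hs
    · exact no_solution_singular hn3 h hs.symm

end Vale.Agent.Results.P100.PlaneAndSingularWeights
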